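import Vale.Agent.P086.Transfer

namespace Vale.Agent.Results.P086.Iso

/-- The free group factors of finite ranks at least three are all isomorphic.  A Hilbert space
with an orthonormal basis indexed by a group `G` is `ℓ²(G)`, the basis being the point masses; `la`
and `mu` are the left regular representations; `M` and `N` are their bicommutants. -/
theorem result (m n : ℕ) (hm : 3 ≤ m) (hn : 3 ≤ n)
    {H : Type*} [NormedAddCommGroup H] [InnerProductSpace ℂ H] [CompleteSpace H]
    {K : Type*} [NormedAddCommGroup K] [InnerProductSpace ℂ K] [CompleteSpace K]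
    (b : HilbertBasis (FreeGroup (Fin m)) ℂ H) (c : HilbertBasis (FreeGroup (Fin n)) ℂ K)
    (la : FreeGroup (Fin m) → H →L[ℂ] H) (hla : ∀ g h, la g (b h) = b (g * h))
    (mu : FreeGroup (Fin n) → K →L[ℂ] K) (hmu : ∀ g h, mu g (c h) = c (g * h))
    (M : VonNeumannAlgebra H) (hM : (M : Set (H →L[ℂ] H)) = (Set.range la).centralizer.centralizer)
    (N : VonNeumannAlgebra K) (hN : (N : Set (K →L[ℂ] K)) = (Set.range mu).centralizer.centralizer) :
    Nonempty (M.toStarSubalgebra ≃⋆ₐ[ℂ] N.toStarSubalgebra) := by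
  obtain ⟨e1⟩ := Vale.Agent.P086.iso_three hm
  obtain ⟨e2⟩ := Vale.Agent.P086.iso_three hn
  obtain ⟨e3⟩ := Vale.Agent.P086.transfer b la hla M.toStarSubalgebra hM
  obtain ⟨e4⟩ := Vale.Agent.P086.transfer c mu hmu N.toStarSubalgebra hN
  exact ⟨e3.trans (e1.symm.trans (e2.trans e4.symm))⟩

end Vale.Agent.Results.P086.Iso
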